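import Vale.Agent.P159.T1.H664.ArmDefs

/-!
P159 T1, D.ARM.2c: the denominator integral of the arm estimate is bounded.
-/

open Filter Topology MeasureTheory Set

namespace Vale.Agent.P159.T1.H711

open Vale.Agent.P159.T1.H664

/-! ### the smooth transition -/

theorem sT_hasDeriv (x : ℝ) : HasDerivAt Real.smoothTransition (deriv Real.smoothTransition x) x :=
  ((Real.smoothTransition.contDiff (n := 1)).differentiable (by norm_num) x).hasDerivAt

theorem deriv_sT_of_lt {x : ℝ} (hx : x < 0) : deriv Real.smoothTransition x = 0 := by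
  have h : Real.smoothTransition =ᶠ[𝓝 x] fun _ => (0 : ℝ) := by
    filter_upwards [Iio_mem_nhds hx] with y hy
    exact Real.smoothTransition.zero_of_nonpos (le_of_lt hy)
  rw [h.deriv_eq]; simp

theorem deriv_sT_of_gt {x : ℝ} (hx : 1 < x) : deriv Real.smoothTransition x = 0 := by
  have h : Real.smoothTransition =ᶠ[𝓝 x] fun _ => (1 : ℝ) := by
    filter_upwards [Ioi_mem_nhds hx] with y hy
    exact Real.smoothTransition.one_of_one_le (le_of_lt hy)
  rw [h.deriv_eq]; simp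

theorem exists_deriv_bound : ∃ K : ℝ, 1 ≤ K ∧ ∀ x, |deriv Real.smoothTransition x| ≤ K := by
  have hc : Continuous (deriv Real.smoothTransition) :=
    (Real.smoothTransition.contDiff (n := 1)).continuous_deriv (by norm_num)
  obtain ⟨K, hK⟩ := isCompact_Icc (a := (0 : ℝ)) (b := 1) |>.exists_bound_of_continuousOn
    hc.continuousOn
  refine ⟨max K 1, le_max_right _ _, fun x => ?_⟩
  by_cases h0 : x < 0
  · rw [deriv_sT_of_lt h0]; simp
  by_cases h1 : 1 < x
  · rw [deriv_sT_of_gt h1]; simp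
  · exact (hK x ⟨not_lt.1 h0, not_lt.1 h1⟩).trans (le_max_left _ _)

theorem sT_lip {K : ℝ} (hK : ∀ x, |deriv Real.smoothTransition x| ≤ K) (x y : ℝ) : |Real.smoothTransition x - Real.smoothTransition y| ≤ K * |x - y| := by
  have := Convex.norm_image_sub_le_of_norm_deriv_le (f := Real.smoothTransition) (s := univ) (x := y) (y := x)
    (C := K) (fun z _ => (sT_hasDeriv z).differentiableAt) (fun z _ => hK z) convex_univ
    (mem_univ _) (mem_univ _)
  simpa [Real.norm_eq_abs] using this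

/-! ### the radial profile -/

theorem gp_nonneg (d x : ℝ) : 0 ≤ gp d x :=
  mul_nonneg (Real.smoothTransition.nonneg _) (by linarith [Real.smoothTransition.le_one (4 * x - 1)])

theorem gp_le_one (d x : ℝ) : gp d x ≤ 1 := by
  unfold gp
  have h1 := Real.smoothTransition.nonneg ((x - 4 * d) / (4 * d))
  have h2 := Real.smoothTransition.le_one ((x - 4 * d) / (4 * d))
  have h3 := Real.smoothTransition.nonneg (4 * x - 1)
  have h4 := Real.smoothTransition.le_one (4 * x - 1)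
  nlinarith

theorem gp_eq_zero {d x : ℝ} (hd : 0 < d) (hx : x ≤ 4 * d) : gp d x = 0 := by
  unfold gp
  rw [Real.smoothTransition.zero_of_nonpos, zero_mul]
  exact div_nonpos_of_nonpos_of_nonneg (by linarith) (by linarith)

theorem gp_eq_zero' {d x : ℝ} (hx : 1 / 2 ≤ x) : gp d x = 0 := by
  unfold gp
  rw [Real.smoothTransition.one_of_one_le (x := 4 * x - 1) (by linarith)]; ring

theorem gp_eq {d x : ℝ} (hd : 0 < d) (hx : 8 * d ≤ x) : gp d x = 1 - Real.smoothTransition (4 * x - 1) := by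
  unfold gp
  rw [Real.smoothTransition.one_of_one_le, one_mul]
  rw [le_div_iff₀ (by linarith)]; linarith

theorem gp_hasDeriv {d : ℝ} (x : ℝ) : HasDerivAt (gp d)
    (deriv Real.smoothTransition ((x - 4 * d) / (4 * d)) * (1 / (4 * d)) * (1 - Real.smoothTransition (4 * x - 1)) +
      Real.smoothTransition ((x - 4 * d) / (4 * d)) * (-(deriv Real.smoothTransition (4 * x - 1) * 4))) x := by
  have h1 : HasDerivAt (fun x : ℝ => (x - 4 * d) / (4 * d)) (1 / (4 * d)) x :=
    ((hasDerivAt_id x).sub_const (4 * d)).div_const (4 * d)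
  have h2 : HasDerivAt (fun x : ℝ => 4 * x - 1) 4 x := by
    simpa using ((hasDerivAt_id x).const_mul 4).sub_const 1
  have h3 := (sT_hasDeriv ((x - 4 * d) / (4 * d))).comp x h1
  have h4 := ((sT_hasDeriv (4 * x - 1)).comp x h2).const_sub 1
  exact h3.mul h4

/-- the derivative of the radial profile -/
theorem deriv_gp_bound {K : ℝ} (hK1 : 1 ≤ K) (hK : ∀ x, |deriv Real.smoothTransition x| ≤ K) {d x : ℝ} (hd : 0 < d) :
    |deriv (gp d) x| ≤ (if x ≤ 8 * d then K / (4 * d) else 0) + (if x ≤ 1 / 2 then 4 * K else 0) := by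
  rw [(gp_hasDeriv (d := d) x).deriv]
  have hs1 := Real.smoothTransition.nonneg ((x - 4 * d) / (4 * d))
  have hs2 := Real.smoothTransition.le_one ((x - 4 * d) / (4 * d))
  have hs3 := Real.smoothTransition.nonneg (4 * x - 1)
  have hs4 := Real.smoothTransition.le_one (4 * x - 1)
  refine (abs_add_le _ _).trans (add_le_add ?_ ?_)
  · split_ifs with h
    · rw [abs_mul, abs_mul, abs_of_nonneg (a := 1 / (4 * d)) (by positivity),
        abs_of_nonneg (a := 1 - Real.smoothTransition (4 * x - 1)) (by linarith)]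
      have : |deriv Real.smoothTransition ((x - 4 * d) / (4 * d))| * (1 / (4 * d)) ≤ K * (1 / (4 * d)) :=
        mul_le_mul_of_nonneg_right (hK _) (by positivity)
      have h0 : 0 ≤ |deriv Real.smoothTransition ((x - 4 * d) / (4 * d))| * (1 / (4 * d)) := by positivity
      calc _ ≤ |deriv Real.smoothTransition ((x - 4 * d) / (4 * d))| * (1 / (4 * d)) * 1 :=
            mul_le_mul_of_nonneg_left (by linarith) h0
        _ ≤ K * (1 / (4 * d)) := by linarith
        _ = K / (4 * d) := by ring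
    · rw [deriv_sT_of_gt]
      · simp
      · rw [lt_div_iff₀ (by linarith)]; linarith [not_le.1 h]
  · split_ifs with h
    · rw [abs_mul, abs_neg, abs_mul, abs_of_nonneg hs1, abs_of_nonneg (a := (4:ℝ)) (by norm_num)]
      have : |deriv Real.smoothTransition (4 * x - 1)| * 4 ≤ K * 4 := mul_le_mul_of_nonneg_right (hK _) (by norm_num)
      have h0 : 0 ≤ |deriv Real.smoothTransition (4 * x - 1)| * 4 := by positivity
      nlinarith
    · rw [deriv_sT_of_gt]
      · simp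
      · linarith [not_le.1 h]

/-! ### the vertical profile -/

theorem us_nonneg {d : ℝ} (hd : 0 < d) (y : ℝ) : 0 ≤ us d y := by
  unfold us
  have h4 := Real.smoothTransition.le_one ((y - d) / d ^ 2)
  have h1 := Real.smoothTransition.nonneg ((y - d ^ 2) / d ^ 2)
  exact mul_nonneg (by positivity) (mul_nonneg h1 (by linarith))

theorem us_le {d : ℝ} (hd : 0 < d) (y : ℝ) : us d y ≤ 1 / d := by
  unfold us
  have h1 := Real.smoothTransition.nonneg ((y - d ^ 2) / d ^ 2)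
  have h2 := Real.smoothTransition.le_one ((y - d ^ 2) / d ^ 2)
  have h3 := Real.smoothTransition.nonneg ((y - d) / d ^ 2)
  have h4 := Real.smoothTransition.le_one ((y - d) / d ^ 2)
  have h0 : (0 : ℝ) ≤ 1 / d := by positivity
  have : Real.smoothTransition ((y - d ^ 2) / d ^ 2) * (1 - Real.smoothTransition ((y - d) / d ^ 2)) ≤ 1 := by nlinarith
  calc _ ≤ 1 / d * 1 := mul_le_mul_of_nonneg_left this h0
    _ = 1 / d := mul_one _

theorem us_eq_zero {d y : ℝ} (hd : 0 < d) (hy : d + d ^ 2 ≤ y) : us d y = 0 := by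
  unfold us
  rw [Real.smoothTransition.one_of_one_le (x := (y - d) / d ^ 2)]
  · ring
  · rw [le_div_iff₀ (by positivity)]; linarith

theorem us_eq {d y : ℝ} (hd : 0 < d) (h1 : 2 * d ^ 2 ≤ y) (h2 : y ≤ d) : us d y = 1 / d := by
  unfold us
  rw [Real.smoothTransition.one_of_one_le (x := (y - d ^ 2) / d ^ 2),
    Real.smoothTransition.zero_of_nonpos (x := (y - d) / d ^ 2)]
  · ring
  · exact div_nonpos_of_nonpos_of_nonneg (by linarith) (by positivity)
  · rw [le_div_iff₀ (by positivity)]; linarith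

theorem us_cont (d : ℝ) : Continuous (us d) := by
  unfold us
  have hs : Continuous Real.smoothTransition := (Real.smoothTransition.contDiff (n := 1)).continuous
  fun_prop

theorem up_nonneg {d y : ℝ} (hd : 0 < d) (hy : 0 ≤ y) : 0 ≤ up d y :=
  intervalIntegral.integral_nonneg hy fun t _ => us_nonneg hd t

theorem up_le_of_le {d y : ℝ} (hd : 0 < d) (hy : 0 ≤ y) : up d y ≤ y / d := by
  unfold up
  calc ∫ t in (0:ℝ)..y, us d t ≤ ∫ _t in (0:ℝ)..y, 1 / d :=
        intervalIntegral.integral_mono_on hy ((us_cont d).intervalIntegrable _ _)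
          intervalIntegrable_const fun t _ => us_le hd t
    _ = y / d := by rw [intervalIntegral.integral_const]; simp [div_eq_mul_inv]

theorem up_le {d y : ℝ} (hd : 0 < d) (hd1 : d ≤ 1) (hy : 0 ≤ y) : up d y ≤ 2 := by
  have key : ∀ z, 0 ≤ z → z ≤ d + d ^ 2 → up d z ≤ 2 := by
    intro z hz hz2
    refine (up_le_of_le hd hz).trans ?_
    rw [div_le_iff₀ hd]; nlinarith
  by_cases h : y ≤ d + d ^ 2
  · exact key y hy h
  · have h1 : up d y = up d (d + d ^ 2) := by
      unfold up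
      rw [← intervalIntegral.integral_add_adjacent_intervals
        ((us_cont d).intervalIntegrable 0 (d + d ^ 2)) ((us_cont d).intervalIntegrable _ y)]
      have : ∫ t in (d + d ^ 2)..y, us d t = ∫ _t in (d + d ^ 2)..y, (0 : ℝ) := by
        apply intervalIntegral.integral_congr
        intro t ht
        rw [uIcc_of_le (by linarith [not_le.1 h])] at ht
        exact us_eq_zero hd ht.1
      rw [this]; simp
    rw [h1]; exact key _ (by positivity) le_rfl


/-! ### geometry -/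

theorem rw_nonneg (w : ℝ × ℝ) : 0 ≤ rw w := Real.sqrt_nonneg _

theorem rw_sq (w : ℝ × ℝ) : rw w ^ 2 = w.1 ^ 2 + w.2 ^ 2 := Real.sq_sqrt (by positivity)

theorem abs_fst_le (w : ℝ × ℝ) : |w.1| ≤ rw w := by
  apply Real.abs_le_sqrt; nlinarith [sq_nonneg w.2]

theorem abs_snd_le (w : ℝ × ℝ) : |w.2| ≤ rw w := by
  apply Real.abs_le_sqrt; nlinarith [sq_nonneg w.1]

/-- the sum of the two profiles is the profile of `|x|` -/
theorem gp_abs {d : ℝ} (hd : 0 < d) (x : ℝ) : gp d (-x) + gp d x = gp d |x| := by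
  rcases le_total 0 x with h | h
  · rw [abs_of_nonneg h, gp_eq_zero hd (x := -x) (by linarith)]; ring
  · rw [abs_of_nonpos h, gp_eq_zero hd (x := x) (by linarith)]; ring

theorem gp_diff {K : ℝ} (hK1 : 1 ≤ K) (hK : ∀ x, |deriv Real.smoothTransition x| ≤ K) {d : ℝ} (hd : 0 < d)
    {w : ℝ × ℝ} (h8 : 8 * d ≤ |w.1|) (h0 : 0 ≤ w.2) (h1 : w.2 ≤ d) :
    |gp d |w.1| - gp d (rw w)| ≤ K * d := by
  have hr := abs_fst_le w
  rw [gp_eq hd h8, gp_eq hd (h8.trans hr)]
  have h2 : |1 - Real.smoothTransition (4 * |w.1| - 1) - (1 - Real.smoothTransition (4 * rw w - 1))| ≤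
      K * |(4 * rw w - 1) - (4 * |w.1| - 1)| := by
    have := sT_lip hK (4 * rw w - 1) (4 * |w.1| - 1)
    calc _ = |Real.smoothTransition (4 * rw w - 1) - Real.smoothTransition (4 * |w.1| - 1)| := by congr 1; ring
      _ ≤ _ := this
  refine h2.trans (mul_le_mul_of_nonneg_left ?_ (by linarith))
  have h3 : (4 * rw w - 1) - (4 * |w.1| - 1) = 4 * (rw w - |w.1|) := by ring
  rw [h3, abs_of_nonneg (by linarith)]
  have hsq := rw_sq w
  have h4 : |w.1| ^ 2 = w.1 ^ 2 := sq_abs _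
  have h5 : (rw w - |w.1|) * (rw w + |w.1|) = w.2 ^ 2 := by nlinarith
  have h6 : 16 * d ≤ rw w + |w.1| := by linarith
  have h7 : 0 ≤ rw w - |w.1| := by linarith
  have h8' : (rw w - |w.1|) * (16 * d) ≤ d ^ 2 := by
    calc (rw w - |w.1|) * (16 * d) ≤ (rw w - |w.1|) * (rw w + |w.1|) :=
          mul_le_mul_of_nonneg_left h6 h7
      _ = w.2 ^ 2 := h5
      _ ≤ d ^ 2 := by nlinarith
  have : (rw w - |w.1|) * 16 ≤ d := by
    by_contra hc
    rw [not_le] at hc
    nlinarith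
  linarith

/-! ### the pointwise bound -/

/-- the small box around the centre -/
def A1 (d : ℝ) : Set (ℝ × ℝ) := Icc (-(8 * d)) (8 * d) ×ˢ Icc 0 (8 * d)

/-- the two thin strips -/
def A2 (d : ℝ) : Set (ℝ × ℝ) := Icc (-(1 / 2)) (1 / 2) ×ˢ Icc 0 (2 * d ^ 2)

def A3 (d : ℝ) : Set (ℝ × ℝ) := Icc (-(1 / 2)) (1 / 2) ×ˢ Icc d (d + d ^ 2)

/-- the whole support -/
def A4 : Set (ℝ × ℝ) := Icc (-(1 / 2)) (1 / 2) ×ˢ Icc 0 (2 * Real.pi)

/-- first term -/
noncomputable def t1 (d : ℝ) (w : ℝ × ℝ) : ℝ :=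
  cW 1 d w.2 * gp d |w.1| - gp d (rw w) * us d w.2

open Classical in
theorem t1_bound {K : ℝ} (hK1 : 1 ≤ K) (hK : ∀ x, |deriv Real.smoothTransition x| ≤ K) {d : ℝ} (hd : 0 < d)
    (hd1 : d ≤ 1 / 100) {w : ℝ × ℝ} (hw0 : 0 < w.2) (hw : |w.1| ≤ 1 / 2) :
    |t1 d w| ≤ (if w ∈ A1 d then 1 / d else 0) + (if w ∈ A2 d then 1 / d else 0) +
      (if w ∈ A3 d then 1 / d else 0) + (K + 1) := by
  have hpi := Real.pi_gt_three
  have hg1 := gp_nonneg d |w.1|
  have hg2 := gp_le_one d |w.1|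
  have hg3 := gp_nonneg d (rw w)
  have hg4 := gp_le_one d (rw w)
  have hu1 := us_nonneg hd w.2
  have hu2 := us_le hd w.2
  have hi : (0:ℝ) < 1 / d := by positivity
  have hn1 : (0:ℝ) ≤ if w ∈ A1 d then 1 / d else 0 := by split_ifs <;> positivity
  have hn2 : (0:ℝ) ≤ if w ∈ A2 d then 1 / d else 0 := by split_ifs <;> positivity
  have hn3 : (0:ℝ) ≤ if w ∈ A3 d then 1 / d else 0 := by split_ifs <;> positivity
  have hgu1 : 0 ≤ gp d (rw w) * us d w.2 := mul_nonneg hg3 hu1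
  have hgu2 : gp d (rw w) * us d w.2 ≤ 1 / d := by
    calc _ ≤ 1 * (1 / d) := mul_le_mul hg4 hu2 hu1 zero_le_one
      _ = 1 / d := one_mul _
  unfold t1
  by_cases hyd : w.2 < d
  · have hc : cW 1 d w.2 = 1 / d := by simp [cW, hyd]
    rw [hc]
    have ha1 : 0 ≤ 1 / d * gp d |w.1| := by positivity
    have ha2 : 1 / d * gp d |w.1| ≤ 1 / d := by nlinarith
    have hle : |1 / d * gp d |w.1| - gp d (rw w) * us d w.2| ≤ 1 / d := by
      rw [abs_le]; constructor <;> linarith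
    by_cases h8 : |w.1| < 8 * d
    · have hm : w ∈ A1 d := by
        refine ⟨⟨?_, ?_⟩, ?_, ?_⟩
        · linarith [(abs_lt.1 h8).1]
        · linarith [(abs_lt.1 h8).2]
        · exact hw0.le
        · linarith
      rw [if_pos hm]
      linarith
    · rw [not_lt] at h8
      by_cases h2 : w.2 ≤ 2 * d ^ 2
      · have hm : w ∈ A2 d := by
          refine ⟨⟨?_, ?_⟩, hw0.le, h2⟩
          · linarith [(abs_le.1 hw).1]
          · linarith [(abs_le.1 hw).2]
        rw [if_pos hm]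
        linarith
      · rw [not_le] at h2
        rw [us_eq hd h2.le hyd.le]
        have h3 := gp_diff hK1 hK hd h8 hw0.le hyd.le
        have h4 : 1 / d * gp d |w.1| - gp d (rw w) * (1 / d) = (gp d |w.1| - gp d (rw w)) / d := by
          field_simp
        rw [h4, abs_div, abs_of_pos hd]
        have h5 : |gp d |w.1| - gp d (rw w)| / d ≤ K := by
          rw [div_le_iff₀ hd]; exact h3
        linarith
  · rw [not_lt] at hyd
    have hc : cW 1 d w.2 = -(1 / (2 * Real.pi - d)) := by simp [cW, not_lt.2 hyd]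
    have hc1 : abs (cW 1 d w.2 * gp d |w.1|) ≤ 1 := by
      rw [hc, abs_mul, abs_neg, abs_of_nonneg hg1, abs_of_pos (by
        have : 0 < 2 * Real.pi - d := by linarith
        positivity)]
      have : 1 / (2 * Real.pi - d) ≤ 1 := by
        rw [div_le_one (by linarith)]; linarith
      have h0 : 0 < 1 / (2 * Real.pi - d) := by
        have : 0 < 2 * Real.pi - d := by linarith
        positivity
      nlinarith
    by_cases h3 : w.2 ≤ d + d ^ 2
    · have hm : w ∈ A3 d := by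
        refine ⟨⟨?_, ?_⟩, hyd, h3⟩
        · linarith [(abs_le.1 hw).1]
        · linarith [(abs_le.1 hw).2]
      rw [if_pos hm]
      calc _ ≤ abs (cW 1 d w.2 * gp d |w.1|) + |gp d (rw w) * us d w.2| := abs_sub _ _
        _ ≤ 1 + 1 / d := add_le_add hc1 (by rw [abs_of_nonneg hgu1]; exact hgu2)
        _ ≤ _ := by linarith
    · rw [us_eq_zero hd (not_le.1 h3).le, mul_zero, sub_zero]
      linarith

theorem rv1 (p q r s : ℝ) : (p + q + r + s) ^ 2 ≤ 4 * (p ^ 2 + q ^ 2 + r ^ 2 + s ^ 2) := by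
  nlinarith [sq_nonneg (p - q), sq_nonneg (p - r), sq_nonneg (p - s), sq_nonneg (q - r),
    sq_nonneg (q - s), sq_nonneg (r - s)]

theorem rv2 (p q : ℝ) : (p + q) ^ 2 ≤ 2 * (p ^ 2 + q ^ 2) := by
  nlinarith [sq_nonneg (p - q)]

theorem rv_final {K D a b c t e : ℝ} (hK : 1 ≤ K) (ha : a ^ 2 = a) (hb : b ^ 2 = b)
    (hc : c ^ 2 = c) (ht : |t| ≤ a * D + b * D + c * D + (K + 1))
    (he : |e| ≤ a * (K * D) + 4 * K) :
    2 * t ^ 2 + 12 * e ^ 2 ≤ 300 * K ^ 2 * D ^ 2 * (a + b + c) + 3000 * K ^ 2 := by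
  have ha0 : 0 ≤ a := by rw [← ha]; exact sq_nonneg a
  have hb0 : 0 ≤ b := by rw [← hb]; exact sq_nonneg b
  have hc0 : 0 ≤ c := by rw [← hc]; exact sq_nonneg c
  have hKsq : 1 ≤ K ^ 2 := by nlinarith
  have h1 : t ^ 2 ≤ (a * D + b * D + c * D + (K + 1)) ^ 2 := by
    rw [← sq_abs t]; exact pow_le_pow_left₀ (abs_nonneg _) ht 2
  have h2 := rv1 (a * D) (b * D) (c * D) (K + 1)
  rw [mul_pow, mul_pow, mul_pow, ha, hb, hc] at h2
  have h3 : e ^ 2 ≤ (a * (K * D) + 4 * K) ^ 2 := by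
    rw [← sq_abs e]; exact pow_le_pow_left₀ (abs_nonneg _) he 2
  have h4 := rv2 (a * (K * D)) (4 * K)
  rw [mul_pow, ha] at h4
  have h5 : (K + 1) ^ 2 ≤ 4 * K ^ 2 := by nlinarith
  have hm : 0 ≤ (a + b + c) * D ^ 2 := by positivity
  have hm2 : (a + b + c) * D ^ 2 ≤ K ^ 2 * ((a + b + c) * D ^ 2) := by
    have := mul_le_mul_of_nonneg_right hKsq hm
    linarith
  have hm3 : 0 ≤ K ^ 2 * (b * D ^ 2) := by positivity
  have hm4 : 0 ≤ K ^ 2 * (c * D ^ 2) := by positivity
  have hm5 : 0 ≤ K ^ 2 * (a * D ^ 2) := by positivity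
  have k1 : t ^ 2 ≤ 4 * ((a + b + c) * D ^ 2) + 16 * K ^ 2 := by
    have : 4 * (a * D ^ 2 + b * D ^ 2 + c * D ^ 2 + (K + 1) ^ 2) =
      4 * ((a + b + c) * D ^ 2) + 4 * (K + 1) ^ 2 := by ring
    linarith
  have k2 : e ^ 2 ≤ 2 * (K ^ 2 * (a * D ^ 2)) + 32 * K ^ 2 := by
    have : 2 * (a * (K * D) ^ 2 + (4 * K) ^ 2) = 2 * (K ^ 2 * (a * D ^ 2)) + 32 * K ^ 2 := by ring
    linarith
  have k3 : 300 * K ^ 2 * D ^ 2 * (a + b + c) = 300 * (K ^ 2 * (a * D ^ 2)) +
      300 * (K ^ 2 * (b * D ^ 2)) + 300 * (K ^ 2 * (c * D ^ 2)) := by ring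
  have k4 : K ^ 2 * ((a + b + c) * D ^ 2) = K ^ 2 * (a * D ^ 2) + K ^ 2 * (b * D ^ 2) +
    K ^ 2 * (c * D ^ 2) := by ring
  linarith

open Classical in
/-- the pointwise bound of the integrand -/
theorem H2_bound {K : ℝ} (hK1 : 1 ≤ K) (hK : ∀ x, |deriv Real.smoothTransition x| ≤ K) {d : ℝ} (hd : 0 < d)
    (hd1 : d ≤ 1 / 100) {w : ℝ × ℝ} (hw0 : 0 < w.2) (hw1 : w.2 < 2 * Real.pi) :
    H2 1 d w ≤ (300 * K ^ 2 / d ^ 2) * ((A1 d).indicator 1 w + (A2 d).indicator 1 w +
      (A3 d).indicator 1 w) + (3000 * K ^ 2) * A4.indicator 1 w := by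
  have hKsq : 1 ≤ K ^ 2 := by nlinarith
  have hr1 := abs_fst_le w
  have hr2 := abs_snd_le w
  have hr0 := rw_nonneg w
  have hrhs : 0 ≤ (300 * K ^ 2 / d ^ 2) * ((A1 d).indicator 1 w + (A2 d).indicator 1 w +
      (A3 d).indicator 1 w) + (3000 * K ^ 2) * A4.indicator (1 : ℝ × ℝ → ℝ) w := by
    have h1 : 0 ≤ (A1 d).indicator (1 : ℝ × ℝ → ℝ) w := indicator_nonneg (fun _ _ => zero_le_one) _
    have h2 : 0 ≤ (A2 d).indicator (1 : ℝ × ℝ → ℝ) w := indicator_nonneg (fun _ _ => zero_le_one) _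
    have h3 : 0 ≤ (A3 d).indicator (1 : ℝ × ℝ → ℝ) w := indicator_nonneg (fun _ _ => zero_le_one) _
    have h4 : 0 ≤ A4.indicator (1 : ℝ × ℝ → ℝ) w := indicator_nonneg (fun _ _ => zero_le_one) _
    positivity
  have hH : H2 1 d w ≤ 2 * t1 d w ^ 2 + 12 * deriv (gp d) (rw w) ^ 2 := by
    unfold H2
    rw [gp_abs hd]
    have hup0 := up_nonneg hd hw0.le
    have hup2 := up_le hd (by linarith) hw0.le
    have hx : |w.1 / rw w| ≤ 1 := by
      rw [abs_div, abs_of_nonneg hr0]; exact div_le_one_of_le₀ hr1 hr0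
    have hy : |w.2 / rw w| ≤ 1 := by
      rw [abs_div, abs_of_nonneg hr0]; exact div_le_one_of_le₀ hr2 hr0
    have hB : (deriv (gp d) (rw w) * (w.2 / rw w) * up d w.2) ^ 2 ≤ 4 * deriv (gp d) (rw w) ^ 2 := by
      have h1 : (w.2 / rw w) ^ 2 ≤ 1 := by
        rw [← sq_abs]; nlinarith [abs_nonneg (w.2 / rw w)]
      have h2 : up d w.2 ^ 2 ≤ 4 := by nlinarith
      have h3 : (w.2 / rw w) ^ 2 * up d w.2 ^ 2 ≤ 1 * 4 :=
        mul_le_mul h1 h2 (sq_nonneg _) zero_le_one
      calc _ = deriv (gp d) (rw w) ^ 2 * ((w.2 / rw w) ^ 2 * up d w.2 ^ 2) := by ring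
        _ ≤ deriv (gp d) (rw w) ^ 2 * (1 * 4) := mul_le_mul_of_nonneg_left h3 (sq_nonneg _)
        _ = _ := by ring
    have hA : (deriv (gp d) (rw w) * (w.1 / rw w) * up d w.2) ^ 2 ≤ 4 * deriv (gp d) (rw w) ^ 2 := by
      have h1 : (w.1 / rw w) ^ 2 ≤ 1 := by
        rw [← sq_abs]; nlinarith [abs_nonneg (w.1 / rw w)]
      have h2 : up d w.2 ^ 2 ≤ 4 := by nlinarith
      have h3 : (w.1 / rw w) ^ 2 * up d w.2 ^ 2 ≤ 1 * 4 :=
        mul_le_mul h1 h2 (sq_nonneg _) zero_le_one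
      calc _ = deriv (gp d) (rw w) ^ 2 * ((w.1 / rw w) ^ 2 * up d w.2 ^ 2) := by ring
        _ ≤ deriv (gp d) (rw w) ^ 2 * (1 * 4) := mul_le_mul_of_nonneg_left h3 (sq_nonneg _)
        _ = _ := by ring
    have e1 : cW 1 d w.2 * gp d |w.1| - phy 1 d w =
        t1 d w - deriv (gp d) (rw w) * (w.2 / rw w) * up d w.2 := by
      unfold phy t1; ring
    have e2 : phx 1 d w = deriv (gp d) (rw w) * (w.1 / rw w) * up d w.2 := by unfold phx; ring
    rw [e1, e2]
    nlinarith [sq_nonneg (t1 d w + deriv (gp d) (rw w) * (w.2 / rw w) * up d w.2)]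
  by_cases hx : |w.1| ≤ 1 / 2
  · have hA4 : w ∈ A4 := by
      refine ⟨⟨?_, ?_⟩, hw0.le, hw1.le⟩
      · linarith [(abs_le.1 hx).1]
      · linarith [(abs_le.1 hx).2]
    have ht := t1_bound hK1 hK hd hd1 hw0 hx
    have hD := deriv_gp_bound hK1 hK (d := d) (x := rw w) hd
    rw [indicator_of_mem hA4]
    have hi : (0:ℝ) < 1 / d := by positivity
    have hD2 : |deriv (gp d) (rw w)| ≤ (if w ∈ A1 d then K / d else 0) + 4 * K := by
      have h1 : (if rw w ≤ 8 * d then K / (4 * d) else 0) ≤ if w ∈ A1 d then K / d else 0 := by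
        by_cases h : rw w ≤ 8 * d
        · have hm : w ∈ A1 d := by
            refine ⟨⟨?_, ?_⟩, hw0.le, ?_⟩
            · linarith [(abs_le.1 (hr1.trans h)).1]
            · linarith [(abs_le.1 (hr1.trans h)).2]
            · exact (le_abs_self _).trans (hr2.trans h)
          rw [if_pos h, if_pos hm]
          exact div_le_div_of_nonneg_left (by linarith) hd (by linarith)
        · rw [if_neg h]; split_ifs <;> positivity
      have h2 : (if rw w ≤ 1 / 2 then 4 * K else 0) ≤ 4 * K := by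
        split_ifs <;> linarith
      linarith
    obtain ⟨a, ha2, e1, f1, f4⟩ : ∃ a : ℝ, a ^ 2 = a ∧ (A1 d).indicator (1 : ℝ × ℝ → ℝ) w = a ∧
        (if w ∈ A1 d then 1 / d else 0) = a * (1 / d) ∧
        (if w ∈ A1 d then K / d else 0) = a * (K * (1 / d)) := by
      by_cases h : w ∈ A1 d
      · exact ⟨1, by norm_num, by rw [indicator_of_mem h]; rfl, by rw [if_pos h, one_mul],
          by rw [if_pos h]; ring⟩
      · exact ⟨0, by norm_num, by rw [indicator_of_notMem h], by rw [if_neg h, zero_mul],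
          by rw [if_neg h, zero_mul]⟩
    obtain ⟨b, hb2, e2, f2⟩ : ∃ b : ℝ, b ^ 2 = b ∧ (A2 d).indicator (1 : ℝ × ℝ → ℝ) w = b ∧
        (if w ∈ A2 d then 1 / d else 0) = b * (1 / d) := by
      by_cases h : w ∈ A2 d
      · exact ⟨1, by norm_num, by rw [indicator_of_mem h]; rfl, by rw [if_pos h, one_mul]⟩
      · exact ⟨0, by norm_num, by rw [indicator_of_notMem h], by rw [if_neg h, zero_mul]⟩
    obtain ⟨c, hc2, e3, f3⟩ : ∃ c : ℝ, c ^ 2 = c ∧ (A3 d).indicator (1 : ℝ × ℝ → ℝ) w = c ∧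
        (if w ∈ A3 d then 1 / d else 0) = c * (1 / d) := by
      by_cases h : w ∈ A3 d
      · exact ⟨1, by norm_num, by rw [indicator_of_mem h]; rfl, by rw [if_pos h, one_mul]⟩
      · exact ⟨0, by norm_num, by rw [indicator_of_notMem h], by rw [if_neg h, zero_mul]⟩
    rw [e1, e2, e3]
    rw [f1, f2, f3] at ht
    rw [f4] at hD2
    have hfin : 300 * K ^ 2 / d ^ 2 = 300 * K ^ 2 * (1 / d) ^ 2 := by
      rw [div_pow, one_pow]; ring
    rw [hfin, Pi.one_apply, mul_one]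
    exact hH.trans (rv_final hK1 ha2 hb2 hc2 ht hD2)
  · rw [not_le] at hx
    have hz : t1 d w = 0 := by
      unfold t1
      rw [gp_eq_zero' hx.le, gp_eq_zero' (hx.le.trans hr1)]; ring
    have hD := deriv_gp_bound hK1 hK (d := d) (x := rw w) hd
    have h1 : ¬ rw w ≤ 8 * d := by linarith
    have h2 : ¬ rw w ≤ 1 / 2 := by linarith
    rw [if_neg h1, if_neg h2] at hD
    have hD0 : deriv (gp d) (rw w) = 0 := by
      rw [← abs_eq_zero]; exact le_antisymm (by simpa using hD) (abs_nonneg _)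
    rw [hz, hD0] at hH
    linarith

/-! ### the integral -/

theorem int_box (a b c e : ℝ) (h1 : a ≤ b) (h2 : c ≤ e) :
    Integrable ((Icc a b ×ˢ Icc c e).indicator (1 : ℝ × ℝ → ℝ)) ∧
      ∫ w, (Icc a b ×ˢ Icc c e).indicator (1 : ℝ × ℝ → ℝ) w = (b - a) * (e - c) := by
  have hm : MeasurableSet (Icc a b ×ˢ Icc c e : Set (ℝ × ℝ)) := measurableSet_Icc.prod measurableSet_Icc
  have hv : (volume : Measure (ℝ × ℝ)) (Icc a b ×ˢ Icc c e) =
      ENNReal.ofReal (b - a) * ENNReal.ofReal (e - c) := by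
    rw [Measure.volume_eq_prod, Measure.prod_prod, Real.volume_Icc, Real.volume_Icc]
  have hfin : (volume : Measure (ℝ × ℝ)) (Icc a b ×ˢ Icc c e) ≠ ⊤ := by
    rw [hv]; exact ENNReal.mul_ne_top ENNReal.ofReal_ne_top ENNReal.ofReal_ne_top
  constructor
  · exact (integrableOn_const hfin (C := (1 : ℝ)) (by simp)).integrable_indicator hm
  · rw [integral_indicator_one hm, Measure.real, hv, ENNReal.toReal_mul,
      ENNReal.toReal_ofReal (by linarith), ENNReal.toReal_ofReal (by linarith)]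

theorem int_lin {f1 f2 f3 f4 : ℝ × ℝ → ℝ} (i1 : Integrable f1) (i2 : Integrable f2)
    (i3 : Integrable f3) (i4 : Integrable f4) (α β : ℝ) :
    ∫ w, (α * (f1 w + f2 w + f3 w) + β * f4 w) =
      α * ((∫ w, f1 w) + (∫ w, f2 w) + ∫ w, f3 w) + β * ∫ w, f4 w := by
  have i12 : Integrable fun w => f1 w + f2 w := i1.add i2
  have i123 : Integrable fun w => f1 w + f2 w + f3 w := i12.add i3
  rw [integral_add (i123.const_mul α) (i4.const_mul β), integral_const_mul, integral_const_mul,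
    integral_add i12 i3, integral_add i1 i2]

theorem stmtJ2 : StmtJ2 := by
  obtain ⟨K, hK1, hK⟩ := exists_deriv_bound
  refine ⟨300 * K ^ 2 * 131 + 3000 * K ^ 2 * (2 * Real.pi), 1 / 100, by norm_num,
    fun d hd hd1 => ?_⟩
  have hb1 := int_box (-(8 * d)) (8 * d) 0 (8 * d) (by linarith) (by linarith)
  have hb2 := int_box (-(1 / 2)) (1 / 2) 0 (2 * d ^ 2) (by norm_num) (by positivity)
  have hb3 := int_box (-(1 / 2)) (1 / 2) d (d + d ^ 2) (by norm_num) (by nlinarith)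
  have hb4 := int_box (-(1 / 2)) (1 / 2) 0 (2 * Real.pi) (by norm_num) (by positivity)
  set g : ℝ × ℝ → ℝ := fun w => (300 * K ^ 2 / d ^ 2) * ((A1 d).indicator 1 w +
    (A2 d).indicator 1 w + (A3 d).indicator 1 w) + (3000 * K ^ 2) * A4.indicator 1 w with hg
  have hgi : Integrable g :=
    (((hb1.1.add hb2.1).add hb3.1).const_mul _).add (hb4.1.const_mul _)
  have hg0 : ∀ w, 0 ≤ g w := by
    intro w
    have h1 : 0 ≤ (A1 d).indicator (1 : ℝ × ℝ → ℝ) w := indicator_nonneg (fun _ _ => zero_le_one) _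
    have h2 : 0 ≤ (A2 d).indicator (1 : ℝ × ℝ → ℝ) w := indicator_nonneg (fun _ _ => zero_le_one) _
    have h3 : 0 ≤ (A3 d).indicator (1 : ℝ × ℝ → ℝ) w := indicator_nonneg (fun _ _ => zero_le_one) _
    have h4 : 0 ≤ A4.indicator (1 : ℝ × ℝ → ℝ) w := indicator_nonneg (fun _ _ => zero_le_one) _
    rw [hg]; positivity
  have hms : MeasurableSet strp := by
    unfold strp
    exact (measurableSet_lt measurable_const measurable_snd).inter
      (measurableSet_lt measurable_snd measurable_const)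
  have h1 : ∫ w in strp, H2 1 d w ≤ ∫ w in strp, g w := by
    apply integral_mono_of_nonneg
    · exact Eventually.of_forall fun w => by
        unfold H2; positivity
    · exact hgi.integrableOn
    · rw [Filter.EventuallyLE, ae_restrict_iff' hms]
      exact Eventually.of_forall fun w hw => H2_bound hK1 hK hd hd1.le hw.1 hw.2
  have h2 : ∫ w in strp, g w ≤ ∫ w, g w :=
    setIntegral_le_integral hgi (Eventually.of_forall hg0)
  have h3 : ∫ w, g w = (300 * K ^ 2 / d ^ 2) * ((8 * d - -(8 * d)) * (8 * d - 0) +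
      (1 / 2 - -(1 / 2)) * (2 * d ^ 2 - 0) + (1 / 2 - -(1 / 2)) * (d + d ^ 2 - d)) +
      (3000 * K ^ 2) * ((1 / 2 - -(1 / 2)) * (2 * Real.pi - 0)) := by
    have := int_lin hb1.1 hb2.1 hb3.1 hb4.1 (300 * K ^ 2 / d ^ 2) (3000 * K ^ 2)
    rw [hb1.2, hb2.2, hb3.2, hb4.2] at this
    exact this
  have h4 : (300 * K ^ 2 / d ^ 2) * ((8 * d - -(8 * d)) * (8 * d - 0) +
      (1 / 2 - -(1 / 2)) * (2 * d ^ 2 - 0) + (1 / 2 - -(1 / 2)) * (d + d ^ 2 - d)) +
      (3000 * K ^ 2) * ((1 / 2 - -(1 / 2)) * (2 * Real.pi - 0)) =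
      300 * K ^ 2 * 131 + 3000 * K ^ 2 * (2 * Real.pi) := by
    field_simp
    ring
  linarith


end Vale.Agent.P159.T1.H711
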