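import Vale.Agent.P159.T1.D.H226.Lat2
import Vale.Agent.P159.T1.D.H469.Tri
import Vale.Agent.P159.T1.H934.Chart
import Vale.Agent.P159.H873.Mono

/-!
P159 T1, D.ARM: the defect of one test function which is supported in a quarter plane box of the
domain is small.
-/

open Filter Topology MeasureTheory

namespace Vale.Agent.P159.T1.H711

open Vale.Agent.P159 Vale.Agent.P159.T1.D Vale.Agent.P159.T1.D.H469 Vale.Agent.P159.T1.H934.Chart

lemma Dir_nonneg' (φ : ℝ × ℝ → ℝ) : 0 ≤ Dir φ :=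
  integral_nonneg fun _ => add_nonneg (sq_nonneg _) (sq_nonneg _)

/-- energy and oscillation of the sample, on every set of bonds -/
lemma en_le {ψ : ℝ × ℝ → ℝ} (hψ : ContDiff ℝ 1 ψ) (hc : HasCompactSupport ψ) (w : ℝ × ℝ) (l : ℕ)
    {η : ℝ} (hη : 0 < η) : ∃ n0 : ℕ, ∀ n ≥ n0, ∀ S : Finset Bnd,
      ∑ e ∈ S, dr (smp ψ n w) e ^ 2 ≤ Dir ψ + η ∧ osc l S (dr (smp ψ n w)) ≤ η := by
  classical
  have h1 := nf_smp (κ := Finset Bnd) (A := Set.univ) hψ hc (w := fun _ => w)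
    (T := max |w.1| |w.2|) fun i _ => ⟨le_max_left _ _, le_max_right _ _⟩
  have ht := unif_tendsto (Set.univ : Set (ℕ × Finset Bnd))
  obtain ⟨R, hR⟩ := h1.supp
  obtain ⟨L, hL⟩ := exists_nat_ge R
  have hsupp : ∀ᶠ i in unif (Set.univ : Set (ℕ × Finset Bnd)), ∀ e,
      dr (smp ψ i.1 w) e ≠ 0 → e ∈ i.2 ∪ Sb L i.1 :=
    hR.mono fun i hi e he => Finset.mem_union_right _ (mem_Sb hL (hi e he))
  have e1 := h1.energy ht (S := fun i => i.2 ∪ Sb L i.1) hsupp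
  have e2 := h1.osc_tendsto ht l (fun i => i.2)
  have hDir : (∫ z, (if true = true then -(fderiv ℝ ψ z (1, 0)) else fderiv ℝ ψ z (0, 1)) ^ 2 +
      (if false = true then -(fderiv ℝ ψ z (1, 0)) else fderiv ℝ ψ z (0, 1)) ^ 2) = Dir ψ := by
    unfold Dir
    congr 1
    funext z
    simp
  rw [hDir] at e1
  have f1 : ∀ᶠ i in unif (Set.univ : Set (ℕ × Finset Bnd)),
      ∑ e ∈ i.2 ∪ Sb L i.1, dr (smp ψ i.1 w) e ^ 2 ≤ Dir ψ + η :=
    e1.eventually_le_const (by linarith)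
  have f2 : ∀ᶠ i in unif (Set.univ : Set (ℕ × Finset Bnd)),
      osc l i.2 (dr (smp ψ i.1 w)) ≤ η := e2.eventually_le_const hη
  have hall := f1.and f2
  rw [unif_eventually] at hall
  obtain ⟨n0, h⟩ := hall
  refine ⟨n0, fun n hn S => ?_⟩
  obtain ⟨g1, g2⟩ := h n hn S (Set.mem_univ _)
  refine ⟨le_trans ?_ g1, g2⟩
  exact Finset.sum_le_sum_of_subset_of_nonneg Finset.subset_union_left fun _ _ _ => sq_nonneg _

/-! ### translations -/

lemma sh_inj (u : Z2) : Function.Injective (sh u) := by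
  rintro ⟨p, d⟩ ⟨p', d'⟩ h
  simp only [sh, Prod.mk.injEq, add_left_inj] at h
  exact Prod.ext h.1 h.2

lemma sum_sh (u : Z2) (S : Finset Bnd) (B : Bnd → ℝ) :
    ∑ e ∈ S, B (sh u e) ^ 2 = ∑ e ∈ S.map ⟨sh u, sh_inj u⟩, B e ^ 2 := by
  rw [Finset.sum_map]
  rfl

lemma osc_sh (l : ℕ) (u : Z2) (S : Finset Bnd) (B : Bnd → ℝ) :
    osc l S (fun e => B (sh u e)) = osc l (S.map ⟨sh u, sh_inj u⟩) B := by
  unfold osc
  rw [Finset.sum_map]
  refine Finset.sum_congr rfl fun e _ => Finset.sum_congr rfl fun w _ => ?_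
  have : sh u (sh w e) = sh w (sh u e) := by
    simp only [sh]
    rw [add_right_comm]
  show (B (sh u (sh w e)) - B (sh u e)) ^ 2 = (B (sh w (sh u e)) - B (sh u e)) ^ 2
  rw [this]

lemma iso_add (u : Z2) (x y z : Bool) (f : Z2) : iso u x y z f = iso 0 x y z f + u := by
  cases x <;> cases y <;> cases z <;> simp [iso, Prod.ext_iff] <;> omega

lemma dr_sh (u : Z2) (g : Z2 → ℝ) (e : Bnd) :
    dr (fun f => g (f + u)) e = dr g (sh u e) := by
  obtain ⟨⟨i, j⟩, d⟩ := e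
  obtain ⟨u1, u2⟩ := u
  cases d <;> simp [dr, lf, rt, sh] <;> ring_nf

/-- a function given in a chart is a translated sample -/
lemma chart_smp {F : ℝ × ℝ → ℝ} (h3 : ∀ z ∈ tsupport F, 0 < z.1 ∧ 0 < z.2) {n : ℕ} (hn : 0 < n)
    {u : Z2} {x y z : Bool} {g : Z2 → ℝ}
    (hg : ∀ f : Z2, 0 ≤ f.1 → 0 ≤ f.2 → g (iso u x y z f) = F ((f.1 : ℝ) / n, (f.2 : ℝ) / n))
    (hg0 : ∀ f : Z2, (∀ f', 0 ≤ f'.1 → 0 ≤ f'.2 → f ≠ iso u x y z f') → g f = 0) (f : Z2) :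
    g (f + u) = smp (F ∘ inv 0 x y z) n (shf 0 0 x y n) f := by
  have e0 : f = iso 0 x y z (isoI 0 x y z f) := (iso_isoI 0 x y z f).symm
  set f' := isoI 0 x y z f with hf'
  have e1 : f + u = iso u x y z f' := by rw [iso_add, ← e0]
  have e2 : smp (F ∘ inv 0 x y z) n (shf 0 0 x y n) f =
      F ((f'.1 : ℝ) / n, (f'.2 : ℝ) / n) := by
    have := smp_iso (F ∘ inv 0 x y z) 0 0 x y z hn f'
    rw [← e0] at this
    rw [this]
    simp only [Function.comp, inv_isoR]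
  rw [e2, e1]
  by_cases h : 0 ≤ f'.1 ∧ 0 ≤ f'.2
  · exact hg f' h.1 h.2
  · rw [hg0]
    · symm
      by_contra hne
      have hmem : (((f'.1 : ℝ) / n, (f'.2 : ℝ) / n) : ℝ × ℝ) ∈ tsupport F :=
        subset_tsupport _ (Function.mem_support.2 hne)
      obtain ⟨g1, g3⟩ := h3 _ hmem
      have hn' : (0 : ℝ) < n := by exact_mod_cast hn
      have k1 : (0 : ℝ) < f'.1 := by
        have := mul_pos g1 hn'
        simpa [div_mul_cancel₀ _ hn'.ne'] using this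
      have k2 : (0 : ℝ) < f'.2 := by
        have := mul_pos g3 hn'
        simpa [div_mul_cancel₀ _ hn'.ne'] using this
      have k1' : 0 < f'.1 := by exact_mod_cast k1
      have k2' : 0 < f'.2 := by exact_mod_cast k2
      exact h ⟨k1'.le, k2'.le⟩
    · intro f'' h1 h2 he
      have : f' = f'' := by
        have h5 : isoI u x y z (iso u x y z f') = isoI u x y z (iso u x y z f'') := by rw [he]
        have h6 : ∀ k : Z2, isoI u x y z (iso u x y z k) = k := by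
          intro k
          cases x <;> cases y <;> cases z <;> simp [iso, isoI]
        rwa [h6, h6] at h5
      rw [this] at h
      exact h ⟨h1, h2⟩

/-- **the defect of one piece** -/
theorem defect {b : ℝ} (hY : 0 ≤ helicity b) {C1 c1 : ℝ} (hc1 : 0 < c1)
    (hV : ∀ φ : ℝ × ℝ → ℝ, ContDiff ℝ 2 φ → HasCompactSupport φ →
      (∀ z ∈ tsupport φ, 0 < z.1 ∧ 0 < z.2) →
      ∀ (a R : ℕ), 1 ≤ a → a ≤ R → (∀ z ∈ tsupport φ, z.1 ≤ a ∧ z.2 ≤ a) → ∀ ε : ℝ, 0 < ε →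
      ∃ n0 : ℕ, ∀ n ≥ n0, ∀ (u : Z2) (x y z : Bool) (U : Finset Z2),
        (∀ f : Z2, 0 ≤ f.1 → f.1 < n * R → 0 ≤ f.2 → f.2 < n * R → iso u x y z f ∈ U) →
        ∀ g : Z2 → ℝ, (∀ f : Z2, 0 ≤ f.1 → 0 ≤ f.2 → g (iso u x y z f) =
          φ ((f.1 : ℝ) / n, (f.2 : ℝ) / n)) →
        (∀ f : Z2, (∀ f', 0 ≤ f'.1 → 0 ≤ f'.2 → f ≠ iso u x y z f') → g f = 0) →
        helicity b * Dir φ * (1 - C1 * ((a : ℝ) / R) ^ c1) - ε ≤ Vr b U (dr g))
    {F : ℝ × ℝ → ℝ} (h1 : ContDiff ℝ 2 F) (h2 : HasCompactSupport F)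
    (h3 : ∀ z ∈ tsupport F, 0 < z.1 ∧ 0 < z.2) {m : ℕ} (hm : 1 ≤ m)
    (h4 : ∀ z ∈ tsupport F, z.1 ≤ m ∧ z.2 ≤ m) {δ : ℝ} (hδ : 0 < δ) :
    ∃ ε1 : ℝ, 0 < ε1 ∧ ∃ R : ℕ, ∀ ε, 0 < ε → ε ≤ ε1 → ∀ (l : ℕ) (C : ℝ), 0 ≤ C →
      ∃ n0 : ℕ, ∀ n ≥ n0, ∀ (u : Z2) (x y z : Bool) (U : Finset Z2),
        (∀ f : Z2, 0 ≤ f.1 → f.1 < n * R → 0 ≤ f.2 → f.2 < n * R → iso u x y z f ∈ U) →
        ∀ g : Z2 → ℝ, (∀ f : Z2, 0 ≤ f.1 → 0 ≤ f.2 → g (iso u x y z f) =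
          F ((f.1 : ℝ) / n, (f.2 : ℝ) / n)) →
        (∀ f : Z2, (∀ f', 0 ≤ f'.1 → 0 ≤ f'.2 → f ≠ iso u x y z f') → g f = 0) →
        ∀ S : Finset Bnd, Df b (helicity b + ε) C l U S (dr g) ≤ δ := by
  set D := Dir F with hD
  have hD0 : 0 ≤ D := Dir_nonneg' F
  set Y := helicity b with hYd
  -- the far sides
  obtain ⟨R, hmR, hR⟩ : ∃ R : ℕ, m ≤ R ∧ Y * D * (C1 * ((m : ℝ) / R) ^ c1) ≤ δ / 4 := by
    have ht : Tendsto (fun R : ℕ => Y * D * (C1 * ((m : ℝ) / R) ^ c1)) atTop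
        (𝓝 (Y * D * (C1 * 0))) := by
      refine Tendsto.const_mul _ (Tendsto.const_mul _ ?_)
      have h5 : Tendsto (fun R : ℕ => (m : ℝ) / R) atTop (𝓝 0) :=
        tendsto_const_div_atTop_nhds_zero_nat _
      have h6 := h5.rpow_const (p := c1) (Or.inr hc1.le)
      rwa [Real.zero_rpow hc1.ne'] at h6
    rw [mul_zero, mul_zero] at ht
    have h7 : ∀ᶠ R : ℕ in atTop, Y * D * (C1 * ((m : ℝ) / R) ^ c1) ≤ δ / 4 :=
      ht.eventually_le_const (by positivity)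
    obtain ⟨R, hR1, hR2⟩ := (h7.and (eventually_ge_atTop m)).exists
    exact ⟨R, hR2, hR1⟩
  refine ⟨δ / (4 * (D + 1)), by positivity, R, fun ε hε hε1 l C hC => ?_⟩
  set η : ℝ := min 1 (δ / (8 * (Y + C + 1))) with hη
  have hη0 : 0 < η := lt_min one_pos (by positivity)
  have hη1 : η ≤ 1 := min_le_left _ _
  have hη2 : (Y + C) * η ≤ δ / 8 := by
    calc (Y + C) * η ≤ (Y + C + 1) * (δ / (8 * (Y + C + 1))) :=
          mul_le_mul (by linarith) (min_le_right _ _) hη0.le (by linarith)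
      _ = δ / 8 := by
          have : Y + C + 1 ≠ 0 := by positivity
          field_simp
  obtain ⟨n1, hn1⟩ := hV F h1 h2 h3 m R hm hmR h4 (δ / 8) (by positivity)
  have hen : ∀ p : Bool × Bool × Bool, ∃ n0 : ℕ, ∀ n ≥ n0, ∀ S : Finset Bnd,
      ∑ e ∈ S, dr (smp (F ∘ inv 0 p.1 p.2.1 p.2.2) n (shf 0 0 p.1 p.2.1 0)) e ^ 2 ≤ D + η ∧
        osc l S (dr (smp (F ∘ inv 0 p.1 p.2.1 p.2.2) n (shf 0 0 p.1 p.2.1 0))) ≤ η := by
    rintro ⟨x, y, z⟩
    have hcd : ContDiff ℝ 2 (F ∘ inv 0 x y z) := by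
      refine h1.comp ?_
      unfold inv
      cases z
      · simp only [Bool.false_eq_true, if_false]
        fun_prop
      · simp only [if_true]
        fun_prop
    have hcs : HasCompactSupport (F ∘ inv 0 x y z) := h2.comp_homeomorph (isoH 0 x y z).symm
    have hDD : Dir (F ∘ inv 0 x y z) = D := by
      have h5 := Dir_comp 0 x y z hcd
      rw [← h5]
      congr 1
      funext p
      simp only [Function.comp, inv_isoR]
    have := en_le (hcd.of_le (by norm_num)) hcs (shf 0 0 x y 0) l hη0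
    rwa [hDD] at this
  choose N hN using hen
  refine ⟨n1 + 1 + ∑ p, N p, fun n hn u x y z U hU g hg hg0 S => ?_⟩
  have hnn : N (x, y, z) ≤ n :=
    (Finset.single_le_sum (f := N) (fun _ _ => Nat.zero_le _)
      (Finset.mem_univ (x, y, z))).trans (by omega)
  have hn0 : 0 < n := by omega
  have hVr := hn1 n (by omega) u x y z U hU g hg hg0
  have hsm : ∀ f, g (f + u) = smp (F ∘ inv 0 x y z) n (shf 0 0 x y 0) f := by
    intro f
    have h5 := chart_smp h3 hn0 hg hg0 f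
    have h6 : shf 0 0 x y n = shf 0 0 x y 0 := by simp [shf]
    rwa [h6] at h5
  have hdr : ∀ e, dr g e = dr (smp (F ∘ inv 0 x y z) n (shf 0 0 x y 0)) (sh (-u) e) := by
    intro e
    have h5 : smp (F ∘ inv 0 x y z) n (shf 0 0 x y 0) = fun f => g (f + u) := by
      funext f
      rw [hsm]
    rw [h5, dr_sh]
    congr 1
    obtain ⟨p, d⟩ := e
    simp [sh]
  obtain ⟨g1, g2⟩ := hN (x, y, z) n hnn (S.map ⟨sh (-u), sh_inj (-u)⟩)
  have hdr' : dr g = fun e => dr (smp (F ∘ inv 0 x y z) n (shf 0 0 x y 0)) (sh (-u) e) :=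
    funext hdr
  rw [← osc_sh, ← hdr'] at g2
  rw [← sum_sh] at g1
  have g1' : ∑ e ∈ S, dr g e ^ 2 ≤ D + η := by
    rw [hdr']; exact g1
  unfold Df
  have k1 : (Y + ε) * ∑ e ∈ S, dr g e ^ 2 ≤ (Y + ε) * (D + η) :=
    mul_le_mul_of_nonneg_left g1' (by linarith)
  have k2 : C * osc l S (dr g) ≤ C * η := mul_le_mul_of_nonneg_left g2 hC
  have k3 : ε * (D + η) ≤ δ / 4 := by
    calc ε * (D + η) ≤ δ / (4 * (D + 1)) * (D + 1) :=
          mul_le_mul hε1 (by linarith) (by linarith) (by positivity)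
      _ = δ / 4 := by
          have : D + 1 ≠ 0 := by positivity
          field_simp
  have k4 : Y * D * (1 - C1 * ((m : ℝ) / R) ^ c1) = Y * D - Y * D * (C1 * ((m : ℝ) / R) ^ c1) := by
    ring
  rw [k4] at hVr
  have k5 : (Y + ε) * (D + η) + C * η = Y * D + ε * (D + η) + (Y + C) * η := by ring
  linarith

end Vale.Agent.P159.T1.H711
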