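import Vale.Agent.P159.T1.H711.DenB

/-!
P159 T1, D.ARM, row DEN-A, parts (2) and (4): limits of the pieces of the test function.
-/

open Filter Topology MeasureTheory

namespace Vale.Agent.P159.T1.H711

open Vale.Agent.P159 Vale.Agent.P159.T1.D Vale.Agent.P159.T1.D.H469 Vale.Agent.P159.T1.H664
  Vale.Agent.P159.T1.H934.Chart

/-- a function given in a chart is a sample, with respect to any centre of the chart -/
lemma chart_smp' {F : ℝ × ℝ → ℝ} (h3 : ∀ z ∈ tsupport F, 0 < z.1 ∧ 0 < z.2) {n : ℕ} (hn : 0 < n)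
    {u : Z2} (v : ℝ × ℝ) {x y z : Bool} {g : Z2 → ℝ}
    (hg : ∀ f : Z2, 0 ≤ f.1 → 0 ≤ f.2 → g (iso u x y z f) = F ((f.1 : ℝ) / n, (f.2 : ℝ) / n))
    (hg0 : ∀ f : Z2, (∀ f', 0 ≤ f'.1 → 0 ≤ f'.2 → f ≠ iso u x y z f') → g f = 0) :
    g = smp (F ∘ inv v x y z) n (shf u v x y n) := by
  funext f
  have e0 : f = iso u x y z (isoI u x y z f) := (iso_isoI u x y z f).symm
  set f' := isoI u x y z f with hf'
  have e2 : smp (F ∘ inv v x y z) n (shf u v x y n) f =
      F ((f'.1 : ℝ) / n, (f'.2 : ℝ) / n) := by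
    have := smp_iso (F ∘ inv v x y z) u v x y z hn f'
    rw [← e0] at this
    rw [this]
    simp only [Function.comp, inv_isoR]
  rw [e2]
  by_cases h : 0 ≤ f'.1 ∧ 0 ≤ f'.2
  · rw [e0]; exact hg f' h.1 h.2
  · rw [hg0]
    · symm
      by_contra hne
      have hmem : (((f'.1 : ℝ) / n, (f'.2 : ℝ) / n) : ℝ × ℝ) ∈ tsupport F :=
        subset_tsupport _ (Function.mem_support.2 hne)
      obtain ⟨g1, g3⟩ := h3 _ hmem
      have hn' : (0 : ℝ) < n := by exact_mod_cast hn
      have k1 : (0 : ℝ) < f'.1 := by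
        have := mul_pos g1 hn'
        simpa [div_mul_cancel₀ _ hn'.ne'] using this
      have k2 : (0 : ℝ) < f'.2 := by
        have := mul_pos g3 hn'
        simpa [div_mul_cancel₀ _ hn'.ne'] using this
      have k1' : 0 < f'.1 := by exact_mod_cast k1
      have k2' : 0 < f'.2 := by exact_mod_cast k2
      exact h ⟨k1'.le, k2'.le⟩
    · intro f'' h1 h2 he
      have h6 : ∀ k : Z2, isoI u x y z (iso u x y z k) = k := by
        intro k
        cases x <;> cases y <;> cases z <;> simp [iso, isoI]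
      have : f' = f'' := by
        rw [hf', he, h6]
      rw [this] at h
      exact h ⟨h1, h2⟩

/-- the pieces in the plane of `z = P / a` -/
noncomputable def psP (v d : ℝ) (i : Fin 3) : ℝ × ℝ → ℝ :=
  if i = 0 then phR v d else if i = 1 then phL v d else phM v d

/-- the corners in the plane of `z = P / a` -/
noncomputable def cv (q : ℕ) (i : Fin 3) : ℝ × ℝ :=
  if i = 0 then (-1, 0) else if i = 1 then (-1 - 1 / (q : ℝ), 0) else (-2, -(6 / (5 * (q : ℝ))))

lemma zP_eq (v d : ℝ) (q : ℕ) (i : Fin 3) :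
    zP v d q i = psP v d i ∘ isoR (cv q i) (cx i) false false := by
  fin_cases i
  · funext z
    show qR v d z = phR v d (isoR (-1, 0) true false false z)
    simp [qR, isoR]
  · funext z
    show qL v d q z = phL v d (isoR (-1 - 1 / (q : ℝ), 0) false false false z)
    simp [qL, isoR, sub_eq_add_neg]
  · funext z
    show qM v d q z = phM v d (isoR (-2, -(6 / (5 * (q : ℝ)))) true false false z)
    simp [qM, isoR, sub_eq_add_neg]

lemma psP_eq (v d : ℝ) (q : ℕ) (i : Fin 3) :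
    psP v d i = zP v d q i ∘ inv (cv q i) (cx i) false false := by
  rw [zP_eq]
  funext p
  simp only [Function.comp, isoR_inv]

lemma nat_div_bd (m k : ℕ) (hk : 0 < k) : |((m / k : ℕ) : ℝ) - (m : ℝ) / k| ≤ 1 := by
  have hk' : (0 : ℝ) < k := by exact_mod_cast hk
  have h1 : ((m / k : ℕ) : ℝ) ≤ (m : ℝ) / k := Nat.cast_div_le
  have h2 : (m : ℝ) / k < ((m / k : ℕ) : ℝ) + 1 := by
    rw [div_lt_iff₀ hk']
    have := Nat.lt_div_mul_add (a := m) hk
    have h3 : (m : ℝ) < ((m / k : ℕ) : ℝ) * k + k := by exact_mod_cast this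
    linarith
  rw [abs_le]
  constructor <;> linarith

lemma cu_bd {q : ℕ} (hq : 1 ≤ q) (a : ℕ) (i : Fin 3) :
    |((cu q a i).1 : ℝ) - a * (cv q i).1| ≤ 2 ∧ |((cu q a i).2 : ℝ) - a * (cv q i).2| ≤ 2 := by
  have hq' : (0 : ℝ) < q := by exact_mod_cast hq
  fin_cases i
  · show |((-(a : ℤ) + 1 : ℤ) : ℝ) - a * (-1)| ≤ 2 ∧ |((-1 : ℤ) : ℝ) - a * 0| ≤ 2
    push_cast
    constructor
    · have : -(a : ℝ) + 1 - a * (-1) = 1 := by ring
      rw [this]; norm_num
    · norm_num
  · show |((-((a + a / q : ℕ) : ℤ) + 1 : ℤ) : ℝ) - a * (-1 - 1 / (q : ℝ))| ≤ 2 ∧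
      |((-1 : ℤ) : ℝ) - a * 0| ≤ 2
    have h1 := nat_div_bd a q (by omega)
    constructor
    · have : ((-((a + a / q : ℕ) : ℤ) + 1 : ℤ) : ℝ) - a * (-1 - 1 / (q : ℝ)) =
          1 - (((a / q : ℕ) : ℝ) - (a : ℝ) / q) := by
        simp only [Int.cast_neg, Int.cast_natCast, Int.cast_add, Int.cast_one, Nat.cast_add]
        ring
      rw [this]
      rw [abs_le] at h1 ⊢
      constructor <;> linarith [h1.1, h1.2]
    · norm_num
  · show |((-(2 * a : ℤ) : ℤ) : ℝ) - a * (-2)| ≤ 2 ∧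
      |((-((6 * a / (5 * q) + 1 : ℕ) : ℤ) : ℤ) : ℝ) - a * (-(6 / (5 * (q : ℝ))))| ≤ 2
    have h1 := nat_div_bd (6 * a) (5 * q) (by omega)
    constructor
    · push_cast
      have : -(2 * (a : ℝ)) - a * (-2) = 0 := by ring
      rw [this]; norm_num
    · have : ((-((6 * a / (5 * q) + 1 : ℕ) : ℤ) : ℤ) : ℝ) - a * (-(6 / (5 * (q : ℝ)))) =
          -1 - (((6 * a / (5 * q) : ℕ) : ℝ) - ((6 * a : ℕ) : ℝ) / ((5 * q : ℕ) : ℝ)) := by
        simp only [Int.cast_neg, Int.cast_natCast, Int.cast_add, Int.cast_one, Nat.cast_add,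
          Nat.cast_one, Nat.cast_mul, Nat.cast_ofNat]
        ring
      rw [this]
      rw [abs_le] at h1 ⊢
      constructor <;> linarith [h1.1, h1.2]

/-- **DEN-A (2), (4)** -/
theorem nf_pieces (hP : StmtPieces) : ∃ q0 : ℕ, 1 ≤ q0 ∧ ∀ q ≥ q0, ∀ v : ℝ, ∀ i : Fin 3,
    ContDiff ℝ 2 (psP v (ang q) i) ∧ HasCompactSupport (psP v (ang q) i) ∧
    NF atTop (fun a : ℕ => (a : ℝ)) (fun a => dr (fP v (ang q) q a i))
      (fun d z => if d then -(fderiv ℝ (psP v (ang q) i) z (1, 0))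
        else fderiv ℝ (psP v (ang q) i) z (0, 1)) ∧
    ∫ z, (-(fderiv ℝ (psP v (ang q) i) z (1, 0))) ^ 2 + (fderiv ℝ (psP v (ang q) i) z (0, 1)) ^ 2 =
      Dir (zP v (ang q) q i) := by
  obtain ⟨q0, hq0, hP1⟩ := hP
  refine ⟨q0, hq0, fun q hq v i => ?_⟩
  obtain ⟨p1, p2, p3, p4⟩ := hP1 q hq v (zP v (ang q) q i) (zP_mem v (ang q) q i)
  have hcd : ContDiff ℝ 2 (psP v (ang q) i) := by
    rw [psP_eq v (ang q) q i]
    refine p1.comp ?_
    unfold inv
    simp only [Bool.false_eq_true, if_false]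
    fun_prop
  have hcs : HasCompactSupport (psP v (ang q) i) := by
    rw [psP_eq v (ang q) q i]
    exact p2.comp_homeomorph (isoH (cv q i) (cx i) false false).symm
  refine ⟨hcd, hcs, ?_, ?_⟩
  · have ht : Tendsto (fun a : ℕ => (a : ℝ)) atTop atTop := tendsto_natCast_atTop_atTop
    have h1 := nf_dr (l := atTop) ht (hcd.of_le (by norm_num)) hcs
      (w := fun a : ℕ => shf (cu q a i) (cv q i) (cx i) false a) (T := 3)
      (Eventually.of_forall fun a => by
        have := shf_le (cx i) false (cu_bd (hq0.trans hq) a i)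
        norm_num at this ⊢
        exact this)
    obtain ⟨b1, b2, b3⟩ := h1
    have he : ∀ᶠ a : ℕ in atTop, dr (fP v (ang q) q a i) =
        dr fun f => psP v (ang q) i (((f.1 : ℝ) + (shf (cu q a i) (cv q i) (cx i) false a).1) / a,
          ((f.2 : ℝ) + (shf (cu q a i) (cv q i) (cx i) false a).2) / a) := by
      filter_upwards [eventually_ge_atTop 1] with a ha
      have h2 := chart_smp' p3 (n := a) (by omega) (cv q i)
        (fun f g1 g2 => fP_iso v (ang q) q a i g1 g2) (fun f hf => fP_zero v (ang q) q a i hf)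
      rw [← psP_eq] at h2
      rw [h2]
      rfl
    refine ⟨?_, ?_, ?_⟩
    · obtain ⟨M, hM⟩ := b1
      refine ⟨M, ?_⟩
      filter_upwards [hM, he] with a h2 h3 e
      rw [h3]; exact h2 e
    · obtain ⟨R, hR⟩ := b2
      refine ⟨R, ?_⟩
      filter_upwards [hR, he] with a h2 h3 e h4
      rw [h3] at h4; exact h2 e h4
    · filter_upwards [b3] with z h2 u d
      refine (h2 u d).congr' ?_
      filter_upwards [he] with a h3
      rw [h3]
  · rw [zP_eq, Dir_comp (cv q i) (cx i) false false hcd]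
    unfold Dir
    congr 1
    funext z
    rw [neg_sq]


end Vale.Agent.P159.T1.H711
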