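import Vale.Agent.P159.T1.H711.Defect
import Vale.Agent.P159.T1.H664.DenDefs
import Vale.Agent.P159.T1.H995.Boxes
import Vale.Agent.P159.H170.Final

/-!
P159 T1, D.ARM, row DEN-B: the defects of the three pieces of the test function.
-/

open Filter Topology MeasureTheory

namespace Vale.Agent.P159.T1.H711

open Vale.Agent.P159 Vale.Agent.P159.T1.D Vale.Agent.P159.T1.D.H469 Vale.Agent.P159.T1.H664

/-! ### the pieces in their charts -/

lemma fR_iso (v d : ℝ) (a : ℕ) {f : Z2} (h1 : 0 ≤ f.1) (h2 : 0 ≤ f.2) :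
    fR v d a (iso (-(a : ℤ) + 1, -1) true false false f) =
      qR v d ((f.1 : ℝ) / a, (f.2 : ℝ) / a) := by
  have e : iso (-(a : ℤ) + 1, -1) true false false f = (-(a : ℤ) + 1 + f.1, -1 + (-1 - f.2)) := by
    simp [iso]
  rw [e]
  unfold fR
  rw [if_pos ⟨by simp only; omega, by simp only; omega⟩]
  congr 2
  · push_cast; ring
  · push_cast; ring

lemma fR_zero (v d : ℝ) (a : ℕ) {f : Z2}
    (h : ∀ f' : Z2, 0 ≤ f'.1 → 0 ≤ f'.2 → f ≠ iso (-(a : ℤ) + 1, -1) true false false f') :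
    fR v d a f = 0 := by
  unfold fR
  rw [if_neg]
  rintro ⟨h1, h2⟩
  refine h (f.1 + a - 1, -2 - f.2) (by simp only; omega) (by simp only; omega) ?_
  simp only [iso, Bool.false_eq_true, if_false, if_true, Prod.ext_iff]
  constructor <;> omega

lemma fL_iso (v d : ℝ) (q a : ℕ) {f : Z2} (h1 : 0 ≤ f.1) (h2 : 0 ≤ f.2) :
    fL v d q a (iso (-((a + a / q : ℕ) : ℤ) + 1, -1) false false false f) =
      qL v d q ((f.1 : ℝ) / a, (f.2 : ℝ) / a) := by
  have e : iso (-((a + a / q : ℕ) : ℤ) + 1, -1) false false false f =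
      (-((a + a / q : ℕ) : ℤ) + 1 + (-1 - f.1), -1 + (-1 - f.2)) := by
    simp [iso]
  rw [e]
  unfold fL
  rw [if_pos ⟨by simp only; omega, by simp only; omega⟩]
  congr 2
  · congr 1
    congr 1
    ring
  · push_cast; ring

lemma fL_zero (v d : ℝ) (q a : ℕ) {f : Z2}
    (h : ∀ f' : Z2, 0 ≤ f'.1 → 0 ≤ f'.2 →
      f ≠ iso (-((a + a / q : ℕ) : ℤ) + 1, -1) false false false f') :
    fL v d q a f = 0 := by
  unfold fL
  rw [if_neg]
  rintro ⟨h1, h2⟩
  refine h (-f.1 - ((a + a / q : ℕ) : ℤ), -2 - f.2) (by simp only; omega) (by simp only; omega) ?_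
  simp only [iso, Bool.false_eq_true, if_false, Prod.ext_iff]
  constructor <;> omega

lemma fM_iso (v d : ℝ) (q a : ℕ) {f : Z2} (h1 : 0 ≤ f.1) (h2 : 0 ≤ f.2) :
    fM v d q a (iso (-(2 * a : ℤ), -((6 * a / (5 * q) + 1 : ℕ) : ℤ)) true false false f) =
      qM v d q ((f.1 : ℝ) / a, (f.2 : ℝ) / a) := by
  have e : iso (-(2 * a : ℤ), -((6 * a / (5 * q) + 1 : ℕ) : ℤ)) true false false f =
      (-(2 * a : ℤ) + f.1, -((6 * a / (5 * q) + 1 : ℕ) : ℤ) + (-1 - f.2)) := by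
    simp [iso]
  rw [e]
  unfold fM
  rw [if_pos ⟨by simp only; omega, by simp only; push_cast; omega⟩]
  congr 2
  · push_cast; ring
  · congr 1
    push_cast; ring

lemma fM_zero (v d : ℝ) (q a : ℕ) {f : Z2}
    (h : ∀ f' : Z2, 0 ≤ f'.1 → 0 ≤ f'.2 →
      f ≠ iso (-(2 * a : ℤ), -((6 * a / (5 * q) + 1 : ℕ) : ℤ)) true false false f') :
    fM v d q a f = 0 := by
  unfold fM
  rw [if_neg]
  rintro ⟨h1, h2⟩
  push_cast at h2
  refine h (f.1 + 2 * a, -((6 * a / (5 * q) + 2 : ℕ) : ℤ) - f.2) (by simp only; omega)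
    (by simp only; push_cast; omega) ?_
  simp only [iso, Bool.false_eq_true, if_false, if_true, Prod.ext_iff]
  push_cast
  constructor <;> omega

/-- the corners and orientations -/
def cu (q a : ℕ) (i : Fin 3) : Z2 :=
  if i = 0 then (-(a : ℤ) + 1, -1) else if i = 1 then (-((a + a / q : ℕ) : ℤ) + 1, -1)
  else (-(2 * a : ℤ), -((6 * a / (5 * q) + 1 : ℕ) : ℤ))

/-- orientation of the first coordinate -/
def cx (i : Fin 3) : Bool := if i = 1 then false else true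

lemma fP_iso (v d : ℝ) (q a : ℕ) (i : Fin 3) {f : Z2} (h1 : 0 ≤ f.1) (h2 : 0 ≤ f.2) :
    fP v d q a i (iso (cu q a i) (cx i) false false f) =
      zP v d q i ((f.1 : ℝ) / a, (f.2 : ℝ) / a) := by
  fin_cases i
  · exact fR_iso v d a h1 h2
  · exact fL_iso v d q a h1 h2
  · exact fM_iso v d q a h1 h2

lemma fP_zero (v d : ℝ) (q a : ℕ) (i : Fin 3) {f : Z2}
    (h : ∀ f' : Z2, 0 ≤ f'.1 → 0 ≤ f'.2 → f ≠ iso (cu q a i) (cx i) false false f') :
    fP v d q a i f = 0 := by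
  fin_cases i
  · exact fR_zero v d a h
  · exact fL_zero v d q a h
  · exact fM_zero v d q a h

lemma zP_mem (v d : ℝ) (q : ℕ) (i : Fin 3) :
    zP v d q i = qR v d ∨ zP v d q i = qL v d q ∨ zP v d q i = qM v d q := by
  fin_cases i
  · exact Or.inl rfl
  · exact Or.inr (Or.inl rfl)
  · exact Or.inr (Or.inr rfl)

/-- **row DEN-B** -/
theorem stmtDenB (hY : ∀ b, bCrit ≤ b → 0 ≤ helicity b) (hV : StmtV) (hP : StmtPieces)
    (hB : StmtBoxes) : StmtDenB := by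
  intro b hb
  obtain ⟨C1, c1, hC1, hc1, hV1⟩ := hV b hb
  obtain ⟨q0, hq0, hP1⟩ := hP
  refine ⟨max q0 6, le_max_of_le_right (by norm_num), fun q hq v δ hδ => ?_⟩
  have hq1 : q0 ≤ q := (le_max_left _ _).trans hq
  have hq6 : 6 ≤ q := (le_max_right _ _).trans hq
  have key : ∀ i : Fin 3, ∃ ε1 : ℝ, 0 < ε1 ∧ ∀ ε, 0 < ε → ε ≤ ε1 → ∀ (l : ℕ) (C : ℝ), 0 ≤ C →
      ∃ a0 A0 : ℕ, ∀ a ≥ a0, ∀ A ≥ A0, ∀ r : ℕ, (a : ℝ) ≤ 1 / 12 * r → ∀ Q : Finset Z2,
        (∀ f, f ∈ Q ↔ f ∈ strip q a (a + a / q)) → ∀ (S : Finset Bnd),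
          Df b (helicity b + ε) C l (SB (A * r) r \ Q) S (dr (fP v (ang q) q a i)) ≤ δ := by
    intro i
    obtain ⟨p1, p2, p3, p4⟩ := hP1 q hq1 v (zP v (ang q) q i) (zP_mem v (ang q) q i)
    obtain ⟨ε1, hε1, R, H⟩ := defect (hY b hb) hc1 hV1 p1 p2 p3 (m := 3) (by norm_num)
      (by exact_mod_cast p4) hδ
    refine ⟨ε1, hε1, fun ε hε hεε l C hC => ?_⟩
    obtain ⟨n0, hn0⟩ := H ε hε hεε l C hC
    obtain ⟨A0, a0, hbox⟩ := hB q hq6 R
    refine ⟨max n0 a0, A0, fun a ha A hA r har Q hQ S => ?_⟩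
    refine hn0 a ((le_max_left _ _).trans ha) (cu q a i) (cx i) false false _ ?_ _
      (fun f h1 h2 => fP_iso v (ang q) q a i h1 h2) (fun f hf => fP_zero v (ang q) q a i hf) S
    intro f h1 h2 h3 h4
    have h5 := hbox A r a hA ((le_max_right _ _).trans ha) har Q hQ f h1 h2 h3 h4
    fin_cases i
    · exact h5.1
    · exact h5.2.1
    · exact h5.2.2
  choose ε1 hε1 H using key
  refine ⟨min (ε1 0) (min (ε1 1) (ε1 2)), lt_min (hε1 0) (lt_min (hε1 1) (hε1 2)),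
    fun ε hε hεε l C hC => ?_⟩
  have hεi : ∀ i, ε ≤ ε1 i := by
    intro i
    fin_cases i
    · exact hεε.trans (min_le_left _ _)
    · exact hεε.trans ((min_le_right _ _).trans (min_le_left _ _))
    · exact hεε.trans ((min_le_right _ _).trans (min_le_right _ _))
  choose a0 A0 K using fun i => H i ε hε (hεi i) l C hC
  refine ⟨a0 0 + a0 1 + a0 2, A0 0 + A0 1 + A0 2, fun a ha A hA r har Q hQ S i => ?_⟩
  refine K i a ?_ A ?_ r har Q hQ S
  · fin_cases i <;> simp only [Fin.zero_eta, Fin.mk_one, Fin.reduceFinMk] <;> omega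
  · fin_cases i <;> simp only [Fin.zero_eta, Fin.mk_one, Fin.reduceFinMk] <;> omega

/-- the same, with the geometry and the sign of the helicity modulus filled in -/
theorem stmtDenB' (hV : StmtV) (hP : StmtPieces) : StmtDenB :=
  stmtDenB (fun _ hb => H873.hel_nonneg (H170.bCrit_pos.le.trans hb)) hV hP H995.stmtBoxes


end Vale.Agent.P159.T1.H711
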