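import Vale.Agent.P159.T1.H711.DenB
import Vale.Agent.P159.T1.H711.J2
import Vale.Agent.P159.T1.H407.ArmTilt
import Vale.Agent.P159.T1.H910.DKit

/-!
P159 T1, D.ARM: the denominator of the arm estimate (assembly).
-/

open Filter Topology MeasureTheory

namespace Vale.Agent.P159.T1.H711

open Vale.Agent.P159 Vale.Agent.P159.T1.D Vale.Agent.P159.T1.D.H469 Vale.Agent.P159.T1.H664

lemma hel_pos {b : ℝ} (hb : bCrit ≤ b) : 0 < helicity b := by
  obtain ⟨h1, h2⟩ := H873.hel_lower H170.bCrit_pos hb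
  exact lt_of_lt_of_le (one_div_pos.2 h1) h2

/-- scaling of the integrand -/
lemma H2_smul (v d : ℝ) (w : ℝ × ℝ) : H2 v d w = v ^ 2 * H2 1 d w := by
  have h1 : cW v d w.2 = v * cW 1 d w.2 := by
    unfold cW
    split_ifs <;> ring
  unfold H2 phx phy
  rw [h1]
  ring

lemma int_H2 (v d : ℝ) : ∫ w in strp, H2 v d w = v ^ 2 * ∫ w in strp, H2 1 d w := by
  rw [← integral_const_mul]
  exact integral_congr_ae (Eventually.of_forall fun w => H2_smul v d w)

lemma ang_pos {q : ℕ} (hq : 1 ≤ q) : 0 < ang q := by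
  unfold ang
  have hq' : (0 : ℝ) < q := by exact_mod_cast hq
  exact Real.arctan_pos.2 (by positivity)

lemma ang_le {q : ℕ} (hq : 1 ≤ q) : ang q ≤ 1 / q := by
  have hq' : (0 : ℝ) < q := by exact_mod_cast hq
  unfold ang
  have h1 : 0 < Real.arctan (1 / (q : ℝ)) := Real.arctan_pos.2 (by positivity)
  have h2 := Real.lt_tan h1 (Real.arctan_lt_pi_div_two _)
  rw [Real.tan_arctan] at h2
  exact h2.le

lemma ang_lt_pi (q : ℕ) : ang q < Real.pi / 2 := Real.arctan_lt_pi_div_two _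

/-- the limits of the upper forms along a family of sets of bonds -/
lemma Nf_tendsto {X : ℕ → Bnd → ℝ} {F : Bool → ℝ × ℝ → ℝ}
    (h : NF atTop (fun a : ℕ => (a : ℝ)) X F) {S : ℕ → Finset Bnd}
    (hS : ∀ᶠ a in atTop, ∀ e, X a e ≠ 0 → e ∈ S a) (Y C : ℝ) (l : ℕ) :
    Tendsto (fun a => Nf Y C l (S a) (X a)) atTop
      (𝓝 (Y * ∫ z, F true z ^ 2 + F false z ^ 2)) := by
  have ht : Tendsto (fun a : ℕ => (a : ℝ)) atTop atTop := tendsto_natCast_atTop_atTop
  have h1 := (h.energy ht hS).const_mul Y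
  have h2 := (h.osc_tendsto ht l S).const_mul C
  have h3 := h1.add h2
  rw [mul_zero, add_zero] at h3
  exact h3

/-- **row DEN-C** -/
theorem den_of (hUV : StmtUV) (hA : StmtDenA) (hB : StmtDenB) : StmtDen := by
  intro b V hb hV
  have hb0 : 0 < b := lt_of_lt_of_le H170.bCrit_pos hb
  set Y := helicity b with hYd
  have hY : 0 < Y := hel_pos hb
  obtain ⟨C2, d0, hd0, hJ⟩ := stmtJ2
  obtain ⟨qA, hqA, hA1⟩ := hA
  obtain ⟨qB, hqB, hB1⟩ := hB b hb
  set M : ℝ := (Y + 1) * ((V / Y) ^ 2 * max C2 0) + 1 with hM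
  have hM0 : 0 ≤ M := by positivity
  obtain ⟨qd, hqd⟩ := exists_nat_gt (1 / d0)
  refine ⟨(1 + (Real.sqrt M + 3) ^ 2) / 2, max (max qA qB) (qd + 1), fun q hq => ?_⟩
  have hq1 : qA ≤ q := (le_max_left _ _).trans ((le_max_left _ _).trans hq)
  have hq2 : qB ≤ q := (le_max_right _ _).trans ((le_max_left _ _).trans hq)
  have hq3 : qd + 1 ≤ q := (le_max_right _ _).trans hq
  have hq0 : 1 ≤ q := by omega
  have hq' : (0 : ℝ) < q := by exact_mod_cast hq0
  have hd : 0 < ang q := ang_pos hq0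
  have hdd : ang q < d0 := by
    refine (ang_le hq0).trans_lt ?_
    have h1 : (qd : ℝ) ≤ q := by exact_mod_cast (by omega : qd ≤ q)
    rw [div_lt_iff₀ hq']
    rw [div_lt_iff₀ hd0] at hqd
    nlinarith
  obtain ⟨L, P, nL, nP, -, iL, iD⟩ := hA1 q hq1 Y V hY hV
  obtain ⟨ε1, hε1, hB2⟩ := hB1 q hq2 (V / Y) 1 one_pos
  set ε : ℝ := min ε1 1 with hεd
  have hε : 0 < ε := lt_min hε1 one_pos
  obtain ⟨l, C', hC', hU⟩ := hUV b ε hb0 hε
  obtain ⟨a1, A0, hD⟩ := hB2 ε hε (min_le_left _ _) l C' hC'.le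
  -- supports
  have ht : Tendsto (fun a : ℕ => (a : ℝ)) atTop atTop := tendsto_natCast_atTop_atTop
  obtain ⟨R0, hR0⟩ := nL.supp
  choose R1 hR1 using fun i => (nP i).supp
  obtain ⟨K, hK⟩ := exists_nat_ge (|R0| + ∑ i, |R1 i|)
  have hs0 : 0 ≤ ∑ i, |R1 i| := Finset.sum_nonneg fun _ _ => abs_nonneg _
  have hK0 : R0 ≤ K := by
    have := le_abs_self R0
    linarith
  have hK1 : ∀ i, R1 i ≤ K := fun i => by
    have h1 := le_abs_self (R1 i)
    have h2 : |R1 i| ≤ ∑ i, |R1 i| :=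
      Finset.single_le_sum (f := fun i => |R1 i|) (fun _ _ => abs_nonneg _) (Finset.mem_univ i)
    have := abs_nonneg R0
    linarith
  have sL : ∀ᶠ a : ℕ in atTop, ∀ e, Bp Y V q a e ≠ 0 → e ∈ Sb K a :=
    hR0.mono fun a ha e he => mem_Sb hK0 (ha e he)
  have sP : ∀ᶠ a : ℕ in atTop, ∀ i, ∀ e, dr (fP (V / Y) (ang q) q a i) e ≠ 0 → e ∈ Sb K a := by
    rw [eventually_all]
    exact fun i => (hR1 i).mono fun a ha e he => mem_Sb (hK1 i) (ha e he)
  have nD := nL.sub ht (NF.sum ht Finset.univ fun i _ => nP i)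
  have sD : ∀ᶠ a : ℕ in atTop, ∀ e, Bp Y V q a e - ∑ i, dr (fP (V / Y) (ang q) q a i) e ≠ 0 →
      e ∈ Sb K a := by
    filter_upwards [sL, sP] with a h1 h2 e he
    by_contra hn
    refine he ?_
    have h3 : Bp Y V q a e = 0 := by
      by_contra h0; exact hn (h1 e h0)
    have h4 : ∀ i, dr (fP (V / Y) (ang q) q a i) e = 0 := fun i => by
      by_contra h0; exact hn (h2 i e h0)
    rw [h3, Finset.sum_eq_zero fun i _ => h4 i, sub_zero]
  -- limits
  have tL := Nf_tendsto nL sL (Y + ε) C' l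
  have tD := Nf_tendsto nD sD (Y + ε) C' l
  rw [iL] at tL
  rw [iD, int_H2] at tD
  set G : ℝ := ∫ x : ℝ, gp (ang q) |x| ^ 2 with hG
  have hG0 : 0 ≤ G := integral_nonneg fun x => sq_nonneg _
  have hpi := Real.pi_pos
  have h2pi : 0 < 2 * Real.pi - ang q := by linarith [ang_lt_pi q]
  have eL : 2 * Sq Y V q ≤
      (Y + ε) * ((V / Y) ^ 2 * (1 / ang q + 1 / (2 * Real.pi - ang q)) * G) := by
    have k1 : 2 * Sq Y V q = Y * ((V / Y) ^ 2 * (1 / ang q) * G) := by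
      unfold Sq
      rw [← hG]
      field_simp
    rw [k1]
    have k2 : 0 ≤ 1 / (2 * Real.pi - ang q) := by positivity
    have k3 : (V / Y) ^ 2 * (1 / ang q) * G ≤
        (V / Y) ^ 2 * (1 / ang q + 1 / (2 * Real.pi - ang q)) * G := by
      refine mul_le_mul_of_nonneg_right (mul_le_mul_of_nonneg_left ?_ (sq_nonneg _)) hG0
      linarith
    have k4 : 0 ≤ (V / Y) ^ 2 * (1 / ang q) * G := by positivity
    exact mul_le_mul (by linarith) k3 k4 (by linarith)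
  have eD : (Y + ε) * ((V / Y) ^ 2 * ∫ w in strp, H2 1 (ang q) w) < M := by
    have k1 : ∫ w in strp, H2 1 (ang q) w ≤ max C2 0 := (hJ _ hd hdd).trans (le_max_left _ _)
    have k2 : (V / Y) ^ 2 * ∫ w in strp, H2 1 (ang q) w ≤ (V / Y) ^ 2 * max C2 0 :=
      mul_le_mul_of_nonneg_left k1 (sq_nonneg _)
    have k3 : 0 ≤ (V / Y) ^ 2 * max C2 0 := by positivity
    have k4 : (Y + ε) * ((V / Y) ^ 2 * ∫ w in strp, H2 1 (ang q) w) ≤
        (Y + ε) * ((V / Y) ^ 2 * max C2 0) := mul_le_mul_of_nonneg_left k2 (by linarith)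
    have k5 : (Y + ε) * ((V / Y) ^ 2 * max C2 0) ≤ (Y + 1) * ((V / Y) ^ 2 * max C2 0) :=
      mul_le_mul_of_nonneg_right (by linarith [min_le_right ε1 1]) k3
    rw [hM]
    linarith
  have fL : ∀ᶠ a : ℕ in atTop, 2 * Sq Y V q - 1 ≤ Nf (Y + ε) C' l (Sb K a) (Bp Y V q a) :=
    tL.eventually_const_le (by linarith)
  have fD : ∀ᶠ a : ℕ in atTop, Nf (Y + ε) C' l (Sb K a)
      (fun e => Bp Y V q a e - ∑ i, dr (fP (V / Y) (ang q) q a i) e) ≤ M :=
    tD.eventually_le_const eD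
  obtain ⟨a2, ha2⟩ := eventually_atTop.1 (sL.and (sP.and (fL.and fD)))
  refine ⟨max a1 a2, A0, fun a ha A hA r har Q hQ => ?_⟩
  obtain ⟨g1, g2, g3, g4⟩ := ha2 a ((le_max_right _ _).trans ha)
  have hDf := hD a ((le_max_left _ _).trans ha) A hA r har Q hQ (Sb K a)
  set U : Finset Z2 := SB (A * r) r \ Q with hUd
  have main := Vr_ge_sum (b := b) (Y := Y + ε) (C := C') (l := l) (U := U) (S := Sb K a)
    (hU U (Sb K a)) hb0.le (B := Bp Y V q a) Finset.univ
    (B' := fun i => dr (fP (V / Y) (ang q) q a i))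
    (fun e he => by by_contra h0; exact he (g1 e h0))
    (fun i _ e he => by by_contra h0; exact he (g2 i e h0)) (δ := fun _ => 1)
    (fun i _ => hDf i)
  have hs3 : ∑ _i : Fin 3, Real.sqrt 1 = 3 := by simp
  rw [hs3] at main
  have hsq : Real.sqrt (Nf (Y + ε) C' l (Sb K a)
      fun e => Bp Y V q a e - ∑ i, dr (fP (V / Y) (ang q) q a i) e) ≤ Real.sqrt M :=
    Real.sqrt_le_sqrt g4
  have hsq2 : (Real.sqrt (Nf (Y + ε) C' l (Sb K a)
      fun e => Bp Y V q a e - ∑ i, dr (fP (V / Y) (ang q) q a i) e) + 3) ^ 2 ≤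
      (Real.sqrt M + 3) ^ 2 :=
    pow_le_pow_left₀ (by positivity) (by linarith) 2
  have hVr : 2 * Sq Y V q - 1 - (Real.sqrt M + 3) ^ 2 ≤ Vr b U (Bp Y V q a) := by
    linarith
  have hdiv : IsDiv U (Bp Y V q a) (fun f => rA Y V q a f + rB Y V q a f) := by
    have hUs : ∀ f ∈ U, ¬ (f.2 = -1 ∧ f.1 < 0) := by
      intro f hf hh
      rw [hUd, Finset.mem_sdiff] at hf
      have := (Finset.mem_filter.1 hf.1).2
      exact this ⟨hh.1, Or.inl hh.2⟩
    have i1 := H407.stmtTiltDiv Y V q (fun τ => GA (ang q) (τ - Real.log a)) U hq0 hUs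
    have i2 := H407.stmtTiltDiv Y V q (fun τ => GB (ang q) (τ - Real.log a)) U hq0 hUs
    intro f hf
    have j1 := i1 f hf
    have j2 := i2 f hf
    simp only [Bp, rA, rB]
    linarith
  have hex := H910.exp_Vr_le_div hb0.le hdiv
  rw [le_div_iff₀ (H910.Z_pos hb0.le U)] at hex
  refine le_trans ?_ hex
  refine mul_le_mul_of_nonneg_right ?_ (H910.Z_pos hb0.le U).le
  refine Real.exp_le_exp.2 ?_
  linarith

/-- **the denominator**, from the two analytic inputs, DEN-A and the pieces -/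
theorem den_of' (hUV : StmtUV) (hV : StmtV) (hP : StmtPieces) (hA : StmtDenA) : StmtDen :=
  den_of hUV hA (stmtDenB' hV hP)


end Vale.Agent.P159.T1.H711
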